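import Vale.Agent.P295.Core

/-!
# P295: stable coordinates in every dimension which are sums of simple blocks
-/

open MvPolynomial

namespace Vale.Agent.Results.P295.Blocks

open Vale.Agent.P295

/-- Let `e` be an automorphism of `ℂ[x₁, …, xₙ]` and suppose that `e g` is a sum of polynomials
`F k` in pairwise disjoint groups of variables, each of which has degree at most two, or is a
constant plus a quasi-homogeneous polynomial for positive weights, or is a polynomial in one
variable. If `g` is a stable coordinate, then `g` is a coordinate. -/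
theorem result (n : ℕ) (κ : Type) [Fintype κ] (F : κ → MvPolynomial (Fin n) ℂ)
    (hdisj : ∀ k l, k ≠ l → Disjoint (F k).vars (F l).vars)
    (hF : ∀ k, (F k).totalDegree ≤ 2 ∨
      (∃ (w : Fin n → ℕ) (D : ℕ) (a : ℂ), (∀ i, 0 < w i) ∧
        IsWeightedHomogeneous w (F k - C a) D) ∨
      ∃ i, (F k).vars ⊆ {i})
    (g : MvPolynomial (Fin n) ℂ) (e : MvPolynomial (Fin n) ℂ ≃ₐ[ℂ] MvPolynomial (Fin n) ℂ)
    (hg : e g = ∑ k, F k) (hs : IsStableCoordinate g) : IsCoordinate g := by
  apply IsCoordinate.of_equiv e
  apply isCoordinate_of_blocks F hg hdisj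
  · intro k
    rcases hF k with h | ⟨w, D, a, hw, h⟩ | ⟨i, h⟩
    · exact good_of_affine h
    · exact good_of_weights hw h
    · exact good_of_univariate h
  · exact unimodular_of_equiv e.symm (e.symm_apply_apply g) hs.unimodular

end Vale.Agent.Results.P295.Blocks
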