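import Vale.Agent.P295H.Sep

/-!
P295 (stable coordinate conjecture), partial answer: stable coordinates of some classes are
coordinates, in every number of variables.
-/

namespace Vale.Agent.Results.P295.Classes

open Vale.Agent.P295H MvPolynomial

universe u

theorem result : ∀ (K : Type u) [Field K] (n : ℕ) (f : MvPolynomial (Fin n) K),
    IsStableCoord f → ∀ α : MvPolynomial (Fin n) K ≃ₐ[K] MvPolynomial (Fin n) K,
    -- (1) up to an automorphism and a constant, `f` is quasi-homogeneous for positive weights
    (∀ (w : Fin n → ℕ) (d : ℕ) (c : K), (∀ i, 0 < w i) →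
      IsWeightedHomogeneous w (α f - C c) d → IsCoord f) ∧
    -- (2) up to an automorphism, `f` has at most two nonconstant monomials
    (∀ (s t : Fin n →₀ ℕ) (a b c : K), α f = C c + monomial s a + monomial t b → IsCoord f) ∧
    -- (3) up to an automorphism, `f` has degree at most two
    ((2 : K) ≠ 0 → ∀ (c : K) (l : Fin n → K) (q : Fin n → Fin n → K),
      α f = C c + ∑ i, C (l i) * X i + ∑ i, ∑ j, C (q i j) * (X i * X j) → IsCoord f) ∧
    -- (4) up to an automorphism, `f` is a sum of polynomials in one variable each
    (IsAlgClosed K → CharZero K → ∀ p : Fin n → Polynomial K,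
      α f = ∑ i, Polynomial.aeval (X i : MvPolynomial (Fin n) K) (p i) → IsCoord f) := by
  intro K _ n f hf α
  have hα := stable_map hf α
  refine ⟨?_, ?_, ?_, ?_⟩
  · intro w d c hw hd
    exact coord_of_map α (coord_of_sub_C (coord_of_weighted (stable_sub_C hα c) hw hd))
  · intro s t a b c h
    apply coord_of_map α
    rw [h] at hα ⊢
    exact coord_of_two hα
  · intro h2 c l q h
    apply coord_of_map α
    rw [h] at hα ⊢
    exact coord_of_quad h2 hα
  · intro _ _ p h
    apply coord_of_map α
    rw [h] at hα ⊢
    exact coord_of_sep hα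

end Vale.Agent.Results.P295.Classes
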