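import Vale.Agent.P295.L.Ext2

/-!
# P295: stable coordinates in every dimension: separated sums, and polynomials which are linear
in a group of variables
-/

open MvPolynomial

namespace Vale.Agent.Results.P295.Combined

open Vale.Agent.P295

/-- Let `g` be a stable coordinate of `ℂ[x₁, …, xₙ]` and `e` an automorphism.

(A) If `e g` is a sum of polynomials in pairwise disjoint groups of variables, each of degree at
most two, or in one variable, or a constant plus a quasi-homogeneous polynomial of positive degree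
for weights in `ℕ` (which may vanish), then `g` is a coordinate.

(B) Let `e g = ∑ j ∈ Z, a j * x j + b` with `a j`, `b` polynomials in the variables outside `Z`,
and let `V` be the set of common zeros of the `a j` in the space of these variables. Then all the
fibres of `b : V → ℂ` have the same cardinality (as elements of `ℕ∞`); if one fibre is empty, or
`V` is finite, or there is at most one variable outside `Z`, then `g` is a coordinate.

(C) Let `e g = ∑ j ∈ Z, a j * x j + b + h(x i₀)`, with `i₀` outside `Z`, a polynomial `h` in one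
variable, and `a j`, `b` polynomials in the remaining variables. If `b` takes only finitely many
values on the common zeros of the `a j`, then `g` is a coordinate. -/
theorem result (n : ℕ) (g : MvPolynomial (Fin n) ℂ) (hs : IsStableCoordinate g)
    (e : MvPolynomial (Fin n) ℂ ≃ₐ[ℂ] MvPolynomial (Fin n) ℂ) :
    (∀ (κ : Type) [Fintype κ] (F : κ → MvPolynomial (Fin n) ℂ),
      (∀ k l, k ≠ l → Disjoint (F k).vars (F l).vars) →
      (∀ k, (F k).totalDegree ≤ 2 ∨ (∃ i, (F k).vars ⊆ {i}) ∨
        ∃ (w : Fin n → ℕ) (D : ℕ) (a : ℂ), 0 < D ∧ IsWeightedHomogeneous w (F k - C a) D) →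
      e g = ∑ k, F k → IsCoordinate g) ∧
    (∀ (Z : Finset (Fin n)) (a : Fin n → MvPolynomial (Fin n) ℂ) (b : MvPolynomial (Fin n) ℂ),
      (∀ j ∈ Z, Disjoint (a j).vars Z) → Disjoint b.vars Z → e g = ∑ j ∈ Z, a j * X j + b →
      (∀ c₁ c₂ : ℂ,
        {v : Fin n → ℂ | (∀ j ∈ Z, v j = 0) ∧ (∀ j ∈ Z, eval v (a j) = 0) ∧
          eval v b = c₁}.encard =
        {v : Fin n → ℂ | (∀ j ∈ Z, v j = 0) ∧ (∀ j ∈ Z, eval v (a j) = 0) ∧
          eval v b = c₂}.encard) ∧
      ((∃ c : ℂ, ∀ v : Fin n → ℂ, (∀ j ∈ Z, eval v (a j) = 0) → eval v b ≠ c) →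
        IsCoordinate g) ∧
      ({v : Fin n → ℂ | (∀ j ∈ Z, v j = 0) ∧ ∀ j ∈ Z, eval v (a j) = 0}.Finite →
        IsCoordinate g) ∧
      (Zᶜ.card ≤ 1 → IsCoordinate g)) ∧
    (∀ (Z : Finset (Fin n)) (i₀ : Fin n) (a : Fin n → MvPolynomial (Fin n) ℂ)
      (b : MvPolynomial (Fin n) ℂ) (h : Polynomial ℂ), i₀ ∉ Z →
      (∀ j ∈ Z, Disjoint (a j).vars (insert i₀ Z)) → Disjoint b.vars (insert i₀ Z) →
      ((fun v : Fin n → ℂ => eval v b) '' {v | ∀ j ∈ Z, eval v (a j) = 0}).Finite →
      e g = ∑ j ∈ Z, a j * X j + (b + Polynomial.aeval (X i₀) h) → IsCoordinate g) := by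
  refine ⟨?_, ?_, ?_⟩
  · intro κ _ F hdisj hF hg
    apply IsCoordinate.of_equiv e
    apply isCoordinate_of_blocks' F hg hdisj
    · intro k
      rcases hF k with h | ⟨i, h⟩ | ⟨w, D, a, hD, h⟩
      · exact Or.inl (good_of_affine h)
      · exact Or.inl (good_of_univariate h)
      · exact Or.inr fun hz => movable_of_weighted
          (fun m f hf w d hd hw => by
            obtain ⟨i, φ, hφ⟩ := Wt.main (fun q hq => quillen_suslin q hq) w f d hd hw hf
            exact ⟨φ, i, hφ⟩) hD h hz
    · exact unimodular_of_equiv e.symm (e.symm_apply_apply g) hs.unimodular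
  · intro Z a b ha hb hg
    have hs' : IsStableCoordinate (∑ j ∈ Z, a j * X j + b) := hg ▸ L.stable_of_equiv e hs
    have key : IsCoordinate (∑ j ∈ Z, a j * X j + b) → IsCoordinate g := fun h =>
      IsCoordinate.of_equiv e (hg ▸ h)
    refine ⟨L.fib_encard Z a b ha hb hs', ?_, ?_, ?_⟩
    · rintro ⟨c, hc⟩
      exact key (L.mainL Z a b ha hb c hc hs')
    · intro hfin
      exact key (L.coord_of_finite Z a b ha hb hs' hfin)
    · intro hZ
      apply key (L.coord_of_one Z a b ha hb hs' _)
      intro i hi j hj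
      exact Finset.card_le_one.mp hZ i (by simpa using hi) j (by simpa using hj)
  · intro Z i₀ a b h hi ha hb hfin hg
    have hs' := L.stable_of_equiv e hs
    rw [hg] at hs'
    exact IsCoordinate.of_equiv e (hg ▸ L.coord_of_uni2 Z a b i₀ hi h ha hb hfin hs')

end Vale.Agent.Results.P295.Combined
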