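import Vale.Agent.P295.Core2
import Vale.Agent.P295.Weighted
import Vale.Agent.P295.QS

/-!
# P295: stable coordinates which are separated sums of quadratic, univariate or quasi-homogeneous
polynomials (weights may vanish)
-/

open MvPolynomial

namespace Vale.Agent.Results.P295.Separated

open Vale.Agent.P295

/-- Let `e` be an automorphism of `ℂ[x₁, …, xₙ]` and suppose that `e g` is a sum of polynomials
`F k` in pairwise disjoint groups of variables, each of which has degree at most two, or is a
polynomial in one variable, or is a constant plus a polynomial which is homogeneous of positive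
degree for some weights in `ℕ` (which may vanish). If `g` is a stable coordinate, then `g` is a
coordinate. -/
theorem result (n : ℕ) (κ : Type) [Fintype κ] (F : κ → MvPolynomial (Fin n) ℂ)
    (hdisj : ∀ k l, k ≠ l → Disjoint (F k).vars (F l).vars)
    (hF : ∀ k, (F k).totalDegree ≤ 2 ∨ (∃ i, (F k).vars ⊆ {i}) ∨
      ∃ (w : Fin n → ℕ) (D : ℕ) (a : ℂ), 0 < D ∧ IsWeightedHomogeneous w (F k - C a) D)
    (g : MvPolynomial (Fin n) ℂ) (e : MvPolynomial (Fin n) ℂ ≃ₐ[ℂ] MvPolynomial (Fin n) ℂ)
    (hg : e g = ∑ k, F k) (hs : IsStableCoordinate g) : IsCoordinate g := by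
  apply IsCoordinate.of_equiv e
  apply isCoordinate_of_blocks' F hg hdisj
  · intro k
    rcases hF k with h | ⟨i, h⟩ | ⟨w, D, a, hD, h⟩
    · exact Or.inl (good_of_affine h)
    · exact Or.inl (good_of_univariate h)
    · exact Or.inr fun hz => movable_of_weighted
        (fun m f hf w d hd hw => by
          obtain ⟨i, φ, hφ⟩ := Wt.main (fun q hq => quillen_suslin q hq) w f d hd hw hf
          exact ⟨φ, i, hφ⟩) hD h hz
  · exact unimodular_of_equiv e.symm (e.symm_apply_apply g) hs.unimodular

end Vale.Agent.Results.P295.Separated
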